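/-
P235-M (helper686): rounds which delete unions of lanes, faces or tight sets.
-/
import Vale.Agent.P235.R2.H341.W2
import Vale.Agent.P235.R2.H899.RtDefs

set_option linter.all false
set_option autoImplicit false

namespace Vale.Agent.P235.H686

open Vale.Agent.P235 H206 H536 Vale.Agent.P235.Red H341W

/-- what a round which deletes a tight set needs: an `L₁` semimetric on the whole graph, at most the
length on every edge, which separates the pairs close to `L` up to the factor `A (ll n + 1)` -/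
def StepT (A : ℝ) : Prop :=
  ∀ (V : Type) [Finite V] (G : SimpleGraph V) (σ : Equiv.Perm G.Dart) (ℓ : Sym2 V → ℝ) (h : V → ℝ)
    (L B₁ B₂ : Set V), G.Connected → PlaneMap G σ → (∀ e ∈ G.edgeSet, 0 < ℓ e) →
    W3.Ends σ B₁ B₂ → R2.H899.TightSet G ℓ h L B₁ B₂ →
    ∃ F : V → V → ℝ, IsL1 F ∧ (∀ u v, G.Adj u v → F u v ≤ ℓ s(u, v)) ∧
      ∀ ν : V → V, Near G ℓ L ν → ∀ x y δ, 0 < δ → pathDist G ℓ x (ν x) ≤ δ →
        pathDist G ℓ y (ν y) ≤ 5 / 4 * δ → 8 * δ ≤ pathDist G ℓ x y →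
        2 * δ ≤ A * ((ll (Nat.card V) : ℝ) + 1) * F x y

/-- `TRounds Q N s g k t G ℓ`: at most `k` rounds which delete from every piece a nonempty union of
at most `s` lanes, or all vertices on the boundary of one face of a rotation system of Euler genus
at most `g`, and at most `t` rounds which delete from every piece (plane, at most `N` vertices) a
tight set, lead to weighted graphs of the class `Q`. After the deletion of `X` every component of
`G - X` is replaced by any `Piece` of `(G, ℓ)` for this component. -/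
inductive TRounds (Q : ∀ (V : Type), SimpleGraph V → (Sym2 V → ℝ) → Prop) (N s g : ℕ) :
    ℕ → ℕ → ∀ {V : Type}, SimpleGraph V → (Sym2 V → ℝ) → Prop
  | leaf {k t : ℕ} {V : Type} {G : SimpleGraph V} {ℓ : Sym2 V → ℝ} : Q V G ℓ →
      TRounds Q N s g k t G ℓ
  | lanes {k t : ℕ} {V : Type} {G : SimpleGraph V} {ℓ : Sym2 V → ℝ} {X : Set V} {W : V → Type}
      {G' : ∀ u, SimpleGraph (W u)} {ℓ' : ∀ u, Sym2 (W u) → ℝ} {κ : ∀ u, compSet G X u → W u} :
      X.Nonempty → Lanes G ℓ s X →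
      (∀ u ∉ X, H341W.Piece G ℓ (compSet G X u) (G' u) (ℓ' u) (κ u)) →
      (∀ u ∉ X, TRounds Q N s g k t (G' u) (ℓ' u)) → TRounds Q N s g (k + 1) t G ℓ
  | face {k t : ℕ} {V : Type} {G : SimpleGraph V} {ℓ : Sym2 V → ℝ} {σ : Equiv.Perm G.Dart}
      {d : G.Dart} {W : V → Type} {G' : ∀ u, SimpleGraph (W u)} {ℓ' : ∀ u, Sym2 (W u) → ℝ}
      {κ : ∀ u, compSet G (onFace σ d) u → W u} : SurfMap g G σ →
      (∀ u ∉ onFace σ d, H341W.Piece G ℓ (compSet G (onFace σ d) u) (G' u) (ℓ' u) (κ u)) →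
      (∀ u ∉ onFace σ d, TRounds Q N s g k t (G' u) (ℓ' u)) → TRounds Q N s g (k + 1) t G ℓ
  | tight {k t : ℕ} {V : Type} {G : SimpleGraph V} {ℓ : Sym2 V → ℝ} {σ : Equiv.Perm G.Dart}
      {h : V → ℝ} {L B₁ B₂ : Set V} {W : V → Type} {G' : ∀ u, SimpleGraph (W u)}
      {ℓ' : ∀ u, Sym2 (W u) → ℝ} {κ : ∀ u, compSet G L u → W u} :
      PlaneMap G σ → Nat.card V ≤ N → W3.Ends σ B₁ B₂ → R2.H899.TightSet G ℓ h L B₁ B₂ →
      (∀ u ∉ L, H341W.Piece G ℓ (compSet G L u) (G' u) (ℓ' u) (κ u)) →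
      (∀ u ∉ L, TRounds Q N s g k t (G' u) (ℓ' u)) → TRounds Q N s g k (t + 1) G ℓ

/-- the rounds, pointed form -/
theorem trounds_pointed {Q : ∀ (V : Type), SimpleGraph V → (Sym2 V → ℝ) → Prop} {C A : ℝ}
    (hC : 0 < C) (hA : 1 ≤ A) (hT : StepT A)
    (hQ : ∀ (V : Type) [Finite V] (G : SimpleGraph V) (ℓ : Sym2 V → ℝ), G.Connected →
      (∀ e ∈ G.edgeSet, 0 < ℓ e) → Q V G ℓ → EmbedsL1 (pathDist G ℓ) C)
    {N s g k t : ℕ} {V : Type} {G : SimpleGraph V}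
    {ℓ : Sym2 V → ℝ} (h : TRounds Q N s g k t G ℓ) : Finite V → G.Connected →
      (∀ e ∈ G.edgeSet, 0 < ℓ e) → ∀ H : V → ℝ, (∀ v, 0 < H v) →
      (∀ u v, G.Adj u v → |H u - H v| ≤ ℓ s(u, v)) →
      Pointed G ℓ H (96 * C + 112 + k * (100 * ((Nat.log 2 s + 1 : ℕ) : ℝ) + g) +
        t * (A * ((ll N : ℝ) + 1) + 4)) := by
  have hm1 : (1 : ℝ) ≤ ((Nat.log 2 s + 1 : ℕ) : ℝ) := by
    exact_mod_cast Nat.le_add_left 1 _
  set m : ℝ := ((Nat.log 2 s + 1 : ℕ) : ℝ) with hmdef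
  have hg0 : (0 : ℝ) ≤ g := Nat.cast_nonneg g
  have hN0 : (0 : ℝ) ≤ (ll N : ℝ) := Nat.cast_nonneg _
  set T : ℝ := A * ((ll N : ℝ) + 1) + 4 with hTdef
  have hT0 : 0 ≤ T := by positivity
  induction h with
  | @leaf k t V G ℓ hD =>
    intro _ hc hℓ H hH hHl
    refine pointed_mono hℓ hH ?_ (pointed_leafW hC hc hℓ hH hHl (hQ V G ℓ hc hℓ hD))
    have : (0 : ℝ) ≤ k * (100 * m + g) := by positivity
    have : (0 : ℝ) ≤ t * T := by positivity
    linarith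
  | @lanes k t V G ℓ X W G' ℓ' κ hX hR hp _ ih =>
    intro hfin hc hℓ H hH hHl
    have hK : (0 : ℝ) ≤ 96 * C + 112 + k * (100 * m + g) + t * T := by positivity
    have e : (96 * C + 112 + k * (100 * m + g) + t * T) + (100 * m + g) =
        96 * C + 112 + ((k + 1 : ℕ) : ℝ) * (100 * m + g) + t * T := by
      push_cast; ring
    rw [← e]
    obtain ⟨u, n, L, hns, hu, hne, hiso, rfl⟩ := hR
    have hn : 0 < n := by
      obtain ⟨x, hx⟩ := hX
      obtain ⟨i, _⟩ := Set.mem_iUnion.1 hx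
      exact i.pos
    refine pointed_mono hℓ hH (by linarith) (pointed_step_lanesD (fun {V} _ {d} hsym hnn {I} _ _ D
      h1 h2 => H105.lanes_fam hsym hnn D h1 h2) hc hℓ hH hHl hn hns hne hu hiso hK
      fun v hv => (hp v hv).stepIH hc hℓ hv hK fun H' hH' hHl' =>
        ih v hv (hp v hv).fin (hp v hv).conn (hp v hv).pos H' hH' hHl')
  | @face k t V G ℓ σ d W G' ℓ' κ hσ hp _ ih =>
    intro hfin hc hℓ H hH hHl
    have hK : (0 : ℝ) ≤ 96 * C + 112 + k * (100 * m + g) + t * T := by positivity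
    have e : (96 * C + 112 + k * (100 * m + g) + t * T) + (100 * m + g) =
        96 * C + 112 + ((k + 1 : ℕ) : ℝ) * (100 * m + g) + t * T := by
      push_cast; ring
    rw [← e]
    refine pointed_mono hℓ hH ?_ (pointed_step_surfD hc hℓ hH hHl hσ d hK
      fun v hv => (hp v hv).stepIH hc hℓ hv hK fun H' hH' hHl' =>
        ih v hv (hp v hv).fin (hp v hv).conn (hp v hv).pos H' hH' hHl')
    push_cast
    linarith
  | @tight k t V G ℓ σ h L B₁ B₂ W G' ℓ' κ hP hN hB hL hp _ ih =>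
    intro hfin hc hℓ H hH hHl
    have hd := pathDist_isMet hc hℓ
    have hK : (0 : ℝ) ≤ 96 * C + 112 + k * (100 * m + g) + t * T := by positivity
    have e : (96 * C + 112 + k * (100 * m + g) + t * T) + T =
        96 * C + 112 + k * (100 * m + g) + ((t + 1 : ℕ) : ℝ) * T := by
      push_cast; ring
    rw [← e]
    obtain ⟨F, hF, hFl, hFX⟩ := hT V G σ ℓ h L B₁ B₂ hc hP hℓ hB hL
    have hn1 : (ll (Nat.card V) : ℝ) ≤ (ll N : ℝ) := by exact_mod_cast W3.ll_mono hN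
    have hn0 : (0 : ℝ) ≤ (ll (Nat.card V) : ℝ) := Nat.cast_nonneg _
    have hA1 : 1 ≤ A * ((ll (Nat.card V) : ℝ) + 1) := by nlinarith
    refine pointed_mono hℓ hH ?_ (pointed_step_genD (F := F) hc hℓ hH hHl hL.ne hF hFl hA1 hFX hK
      fun v hv => (hp v hv).stepIH hc hℓ hv hK fun H' hH' hHl' =>
        ih v hv (hp v hv).fin (hp v hv).conn (hp v hv).pos H' hH' hHl')
    have : A * ((ll (Nat.card V) : ℝ) + 1) ≤ A * ((ll N : ℝ) + 1) :=
      mul_le_mul_of_nonneg_left (by linarith) (by linarith)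
    rw [hTdef]
    linarith

/-- **Rounds of lanes, faces and tight sets.** -/
theorem trounds_distortion {A : ℝ} (hA : 1 ≤ A) (hT : StepT A)
    (Q : ∀ (V : Type), SimpleGraph V → (Sym2 V → ℝ) → Prop) {C : ℝ}
    (hC : 1 ≤ C)
    (hQ : ∀ (V : Type) [Finite V] (G : SimpleGraph V) (ℓ : Sym2 V → ℝ), G.Connected →
      (∀ e ∈ G.edgeSet, 0 < ℓ e) → Q V G ℓ → EmbedsL1 (pathDist G ℓ) C)
    (N s g k t : ℕ) (V : Type) [Finite V] (G : SimpleGraph V) (ℓ : Sym2 V → ℝ) (hc : G.Connected)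
    (hℓ : ∀ e ∈ G.edgeSet, 0 < ℓ e) (h : TRounds Q N s g k t G ℓ) :
    EmbedsL1 (pathDist G ℓ)
      (5000000 * (C + k * (g + Real.log (s + 2)) + t * (A * ((ll N : ℝ) + 1)))) := by
  have hd := pathDist_isMet hc hℓ
  have hC0 : 0 < C := by linarith
  have hN0 : (0 : ℝ) ≤ (ll N : ℝ) := Nat.cast_nonneg _
  obtain ⟨Ω, m, μ, f, hf⟩ := pointed_embeds
    (K := 96 * C + 112 + k * (100 * ((Nat.log 2 s + 1 : ℕ) : ℝ) + g) +
      t * (A * ((ll N : ℝ) + 1) + 4)) (by positivity) hc hℓ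
    (fun H hH hHl => trounds_pointed hC0 hA hT hQ h inferInstance hc hℓ H hH hHl)
  refine ⟨Ω, m, μ, f, fun x y => ⟨(hf x y).1, (hf x y).2.trans
    (mul_le_mul_of_nonneg_right ?_ (hd.nonneg x y))⟩⟩
  have hk0 : (0 : ℝ) ≤ k := Nat.cast_nonneg k
  have ht0 : (0 : ℝ) ≤ t := Nat.cast_nonneg t
  have h1 := mul_le_mul_of_nonneg_left (log_add_two s) hk0
  have h2 : 0 ≤ (k : ℝ) * Real.log (s + 2) :=
    mul_nonneg hk0 (Real.log_nonneg (by
      have : (0 : ℝ) ≤ s := Nat.cast_nonneg s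
      linarith))
  have h3 : 0 ≤ (k : ℝ) * g := mul_nonneg hk0 (Nat.cast_nonneg g)
  have hA1 : 1 ≤ A * ((ll N : ℝ) + 1) := by nlinarith
  have h4 : (t : ℝ) * 1 ≤ t * (A * ((ll N : ℝ) + 1)) := mul_le_mul_of_nonneg_left hA1 ht0
  have h5 : (t : ℝ) * (A * ((ll N : ℝ) + 1) + 4) = t * (A * ((ll N : ℝ) + 1)) + 4 * t := by ring
  rw [h5]
  nlinarith

end Vale.Agent.P235.H686
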