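/-
P235-M (helper686): rounds of lanes in graphs without a `K_r` minor: `√(k log (s + 2))` instead of
`√k log (s + 2)`.  The literal rows.
-/
import Vale.Agent.P235.R2.H549.KSpec
import Vale.Agent.P235.R2.H802.SqMain

set_option autoImplicit false

namespace Vale.Agent.P235.Kl

open Vale.Agent.P235 Vale.Agent.P235.Kr

/-- (A) one map at the variable scale `τ`, with a base point -/
def RowVarP : Prop :=
  ∀ (r : ℕ) (V : Type) [Finite V] (G : SimpleGraph V) (ℓ : Sym2 V → ℝ), G.Connected →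
    NoK r G → (∀ e ∈ G.edgeSet, 0 < ℓ e) →
    ∀ τ : V → ℝ, (∀ v, 0 ≤ τ v) → (∀ u v, G.Adj u v → |τ u - τ v| ≤ ℓ s(u, v)) →
    ∃ N : Option V → Option V → ℝ, IsSq N ∧
      (∀ u v, G.Adj u v → N (some u) (some v) ≤ 12 * ℓ s(u, v) ^ 2) ∧
      (∀ v, N (some v) none ≤ 12 * τ v ^ 2) ∧
      ∀ x y, 0 < τ x → τ x ≤ 2 * pathDist G ℓ x y →
        τ x ^ 2 ≤ (1000 * ((r : ℝ) + 2) ^ 3) ^ 2 * N (some x) (some y)

/-- (B) the pointed family of square type which separates the pairs close to a union of lanes -/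
def RowLanesP (C : ℝ) : Prop :=
  ∀ (r : ℕ) (V : Type) [Finite V] (G : SimpleGraph V) (ℓ : Sym2 V → ℝ), G.Connected →
    NoK r G → (∀ e ∈ G.edgeSet, 0 < ℓ e) → ∀ H : V → ℝ, (∀ v, 0 < H v) →
    (∀ u v, G.Adj u v → |H u - H v| ≤ ℓ s(u, v)) →
    ∀ (n : ℕ) (L : Fin n → Set V) (u : V → ℝ), 0 < n → (∀ i, (L i).Nonempty) →
    (∀ a b, |u a - u b| ≤ pathDist G ℓ a b) →
    (∀ i, ∀ a ∈ L i, ∀ b ∈ L i, pathDist G ℓ a b ≤ |u a - u b|) →
    ∀ ν : V → V, Near G ℓ (⋃ i, L i) ν →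
    ∃ N : Option V → Option V → ℝ, IsSq N ∧
      (∀ a b, G.Adj a b → N (some a) (some b) ≤
        C * ((r : ℝ) + 2) ^ 6 * Real.log ((n : ℝ) + 2) * ℓ s(a, b) ^ 2) ∧
      (∀ v, N (some v) none ≤ C * ((r : ℝ) + 2) ^ 6 * Real.log ((n : ℝ) + 2) * H v ^ 2) ∧
      (∀ v, H v ^ 2 ≤ 4000000 * N (some v) none) ∧
      ∀ x y δ, 0 < δ → δ ≤ H x → δ ≤ H y → 8 * δ ≤ pathDist G ℓ x y →
        pathDist G ℓ x (ν x) < δ → δ ^ 2 ≤ 4000000 * N (some x) (some y)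

end Vale.Agent.P235.Kl
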