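/-
P235-M (helper686): row (B) of `KlSpec`, the pointed family of square type for the pairs close to a
union of lanes (after helper802, helper718, helper105).
-/
import Vale.Agent.P235.R2.H686.KlSpec
import Vale.Agent.P235.R2.H718.Desc

set_option linter.all false
set_option autoImplicit false

namespace Vale.Agent.P235.Kl

open Finset Vale.Agent.P235 Vale.Agent.P235.Kr Vale.Agent.P235.Kpr H206 H536 H341W Vale.Agent.P235.H718

theorem log2_le' (s : ℕ) : ((Nat.log 2 s : ℕ) : ℝ) + 1 ≤ 4 * Real.log ((s : ℝ) + 2) := by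
  have hs0 : (0 : ℝ) ≤ s := Nat.cast_nonneg _
  have h2 : (1 : ℝ) / 2 ≤ Real.log 2 := by
    have := Real.log_two_gt_d9
    linarith
  have h3 : Real.log 2 ≤ Real.log ((s : ℝ) + 2) := Real.log_le_log (by norm_num) (by linarith)
  rcases Nat.eq_zero_or_pos s with rfl | hs
  · simp only [Nat.log_zero_right, Nat.cast_zero]
    simp only [Nat.cast_zero] at h3
    linarith
  · have h4 : (2 : ℝ) ^ (Nat.log 2 s) ≤ s := by
      exact_mod_cast Nat.pow_log_le_self 2 hs.ne'
    have h5 : (Nat.log 2 s : ℝ) * Real.log 2 ≤ Real.log ((s : ℝ) + 2) := by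
      rw [← Real.log_pow]
      exact Real.log_le_log (by positivity) (h4.trans (by linarith))
    have h6 : (0 : ℝ) ≤ (Nat.log 2 s : ℝ) := Nat.cast_nonneg _
    nlinarith

theorem isSq_smul {V : Type} {N : V → V → ℝ} (h : IsSq N) {c : ℝ} (hc : 0 ≤ c) :
    IsSq (fun a b => c * N a b) := by
  obtain ⟨ι, hι, w, g, hw, hN⟩ := h
  refine ⟨ι, hι, fun i => c * w i, g, fun i => mul_nonneg hc (hw i), fun x y => ?_⟩
  show c * N x y = _
  rw [hN, Finset.mul_sum]
  exact Finset.sum_congr rfl fun i _ => by ring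

/-- (B) -/
theorem rowLanesP (hA : RowVarP) : RowLanesP 384 := by
  classical
  intro r V _ G ℓ hc hK hℓ H hH hHl n L u hn hL hu hiso ν hν
  have := Fintype.ofFinite V
  have hd := pathDist_isMet hc hℓ
  have hH0 : ∀ v, 0 ≤ H v := fun v => (hH v).le
  choose μ hμ using fun i => exists_near (X := L i) hc hℓ (hL i)
  let D : Fin n → V → ℝ := fun i x => min (pathDist G ℓ x (μ i x) / 2) (H x)
  have hDd : ∀ i x, D i x = min (pathDist G ℓ x (μ i x) / 2) (H x) := fun _ _ => rfl
  have hD0 : ∀ i v, 0 ≤ D i v := fun i v => le_min (by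
    have := hd.nonneg v (μ i v)
    linarith) (hH0 v)
  have hDl : ∀ i a b, G.Adj a b → |D i a - D i b| ≤ ℓ s(a, b) := by
    intro i a b hab
    have hadj := pathDist_adj hℓ hab
    have hl := hℓ s(a, b) hab
    refine (abs_min_sub_min_le_max _ _ _ _).trans (max_le ?_ (hHl a b hab))
    have e1 := (hμ i).lip hc hℓ a b
    have e2 := (hμ i).lip hc hℓ b a
    rw [hd.symm b a] at e2
    rw [abs_le]; constructor <;> linarith
  set J := Nat.log 2 n with hJ
  have hq : ∀ j : Fin (J + 1), 2 ^ (j : ℕ) ≤ n := fun j =>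
    Nat.pow_le_of_le_log hn.ne' (by have := j.2; omega)
  choose τ hτ0 hτl hτle hτlt using fun j : Fin (J + 1) =>
    orderStat (G := G) (ℓ := ℓ) D hD0 hDl (q := 2 ^ (j : ℕ)) (by positivity)
      (by rw [Fintype.card_fin]; exact hq j)
  have hτH : ∀ j v, τ j v ≤ H v := fun j v => hτle j v (H v) Finset.univ
    (fun i _ => min_le_right _ _) (by rw [Finset.card_univ, Fintype.card_fin]; exact hq j)
  choose N hN1 hN2 hN3 hN4 using fun j => hA r V G ℓ hc hK hℓ (τ j) (hτ0 j) (hτl j)
  obtain ⟨N1, hS1, a1, a2, a3, a4⟩ := fanSq (G := G) (ℓ := ℓ) hH0 hHl (f := u)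
    (fun a b hab => (hu a b).trans (pathDist_adj hℓ hab))
  obtain ⟨N2, hS2, b1, b2, b3, b4⟩ := fanSq (G := G) (ℓ := ℓ) hH0 hHl
    (f := fun v => pathDist G ℓ v (ν v)) (fun a b hab => by
      have e1 := hν.lip hc hℓ a b
      have e2 := hν.lip hc hℓ b a
      have hadj := pathDist_adj hℓ hab
      rw [hd.symm b a] at e2
      rw [abs_le]; constructor <;> linarith)
  set R : ℝ := ((r : ℝ) + 2) ^ 6 with hR
  have hr0 : (0 : ℝ) ≤ r := Nat.cast_nonneg _
  have hR64 : (64 : ℝ) ≤ R := by
    have := pow_le_pow_left₀ (by norm_num : (0 : ℝ) ≤ 2) (by linarith : (2 : ℝ) ≤ (r : ℝ) + 2) 6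
    rw [hR]
    linarith
  have hR0 : (0 : ℝ) ≤ R := by linarith
  have hsum : IsSq fun a b : Option V => ∑ j : Fin (J + 1), N j a b :=
    IsSq.sum Finset.univ (fun j => N j) fun j _ => hN1 j
  set Λ : ℝ := Real.log ((n : ℝ) + 2) with hΛ
  have hΛ1 : (1 : ℝ) / 2 ≤ Λ := by
    have h2 := Real.log_two_gt_d9
    have h3 : Real.log 2 ≤ Λ := Real.log_le_log (by norm_num) (by
      have : (0 : ℝ) ≤ n := Nat.cast_nonneg _
      linarith)
    linarith
  have hJΛ : (J : ℝ) + 1 ≤ 4 * Λ := log2_le' n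
  have hJ0 : (0 : ℝ) ≤ (J : ℝ) + 1 := by positivity
  have hRΛ : 32 ≤ R * Λ := by nlinarith
  -- the bound of a sum
  have hbd : ∀ t : ℝ, 0 ≤ t → 4 * t + 16 * t + R * (((J : ℝ) + 1) * (12 * t)) ≤
      384 * R * Λ * t := by
    intro t ht
    have h1 : R * (((J : ℝ) + 1) * (12 * t)) ≤ R * (4 * Λ * (12 * t)) :=
      mul_le_mul_of_nonneg_left (mul_le_mul_of_nonneg_right hJΛ (by linarith)) hR0
    have h2 : 32 * t ≤ R * Λ * t := mul_le_mul_of_nonneg_right hRΛ ht
    have h3 : R * (4 * Λ * (12 * t)) = 48 * (R * Λ * t) := by ring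
    have h4 : 384 * R * Λ * t = 384 * (R * Λ * t) := by ring
    have h5 : 0 ≤ R * Λ * t := by positivity
    rw [h4]
    linarith
  refine ⟨fun a b => (4 * N1 a b + 16 * N2 a b) + R * ∑ j : Fin (J + 1), N j a b,
    ((isSq_smul hS1 (by norm_num)).add (isSq_smul hS2 (by norm_num))).add (isSq_smul hsum hR0), ?_, ?_, ?_, ?_⟩
  · intro a b hab
    show 4 * N1 (some a) (some b) + 16 * N2 (some a) (some b) +
      R * ∑ j : Fin (J + 1), N j (some a) (some b) ≤ 384 * R * Λ * ℓ s(a, b) ^ 2
    have h1 := a1 a b hab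
    have h2 := b1 a b hab
    have h3 : ∑ j : Fin (J + 1), N j (some a) (some b) ≤ ((J : ℝ) + 1) * (12 * ℓ s(a, b) ^ 2) := by
      refine (Finset.sum_le_sum fun j _ => hN2 j a b hab).trans (le_of_eq ?_)
      rw [Finset.sum_const, Finset.card_univ, Fintype.card_fin, nsmul_eq_mul]
      push_cast
      ring
    have h4 := mul_le_mul_of_nonneg_left h3 hR0
    have h5 := hbd (ℓ s(a, b) ^ 2) (sq_nonneg _)
    linarith
  · intro v
    show 4 * N1 (some v) none + 16 * N2 (some v) none +
      R * ∑ j : Fin (J + 1), N j (some v) none ≤ 384 * R * Λ * H v ^ 2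
    have h1 := a2 v
    have h2 := b2 v
    have h3 : ∑ j : Fin (J + 1), N j (some v) none ≤ ((J : ℝ) + 1) * (12 * H v ^ 2) := by
      refine (Finset.sum_le_sum fun j _ => (hN3 j v).trans (mul_le_mul_of_nonneg_left
        (pow_le_pow_left₀ (hτ0 j v) (hτH j v) 2) (by norm_num))).trans (le_of_eq ?_)
      rw [Finset.sum_const, Finset.card_univ, Fintype.card_fin, nsmul_eq_mul]
      push_cast
      ring
    have h4 := mul_le_mul_of_nonneg_left h3 hR0
    have h5 := hbd (H v ^ 2) (sq_nonneg _)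
    linarith
  · intro v
    show H v ^ 2 ≤ 4000000 * (4 * N1 (some v) none + 16 * N2 (some v) none +
      R * ∑ j : Fin (J + 1), N j (some v) none)
    have h1 := a3 v
    have h2 := hS1.nonneg (some v) none
    have h3 := hS2.nonneg (some v) none
    have h4 := mul_nonneg hR0 (hsum.nonneg (some v) none)
    have h4' : 0 ≤ R * ∑ j : Fin (J + 1), N j (some v) none := h4
    linarith
  · intro x y δ hδ hx hy hxy hxν
    show δ ^ 2 ≤ 4000000 * (4 * N1 (some x) (some y) + 16 * N2 (some x) (some y) +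
      R * ∑ j : Fin (J + 1), N j (some x) (some y))
    have p1 := hS1.nonneg (some x) (some y)
    have p2 := hS2.nonneg (some x) (some y)
    have p3 : 0 ≤ ∑ j : Fin (J + 1), N j (some x) (some y) := hsum.nonneg (some x) (some y)
    have p3' : 0 ≤ R * ∑ j : Fin (J + 1), N j (some x) (some y) := mul_nonneg hR0 p3
    by_cases hcase : δ / 4 ≤ |pathDist G ℓ x (ν x) - pathDist G ℓ y (ν y)|
    · have f2 := b4 x y (δ / 4) (by linarith) (by linarith) (by linarith) hcase
      have e : (δ / 4) ^ 2 = δ ^ 2 / 16 := by ring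
      rw [e] at f2
      linarith
    push Not at hcase
    have h3 := (abs_lt.1 hcase).1
    have hsy : pathDist G ℓ y (ν y) < 5 / 4 * δ := by linarith
    by_cases hcase2 : δ / 2 ≤ |u x - u y|
    · have f1 := a4 x y (δ / 2) (by linarith) (by linarith) (by linarith) hcase2
      have e : (δ / 2) ^ 2 = δ ^ 2 / 4 := by ring
      rw [e] at f1
      linarith
    push Not at hcase2
    -- no common lane
    have hno : ∀ i, ¬ (D i x ≤ 5 / 8 * δ ∧ D i y ≤ 5 / 8 * δ) := by
      rintro i ⟨h1, h2⟩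
      rw [hDd, min_le_iff] at h1 h2
      have h1' : pathDist G ℓ x (μ i x) / 2 ≤ 5 / 8 * δ := h1.resolve_right (by linarith)
      have h2' : pathDist G ℓ y (μ i y) / 2 ≤ 5 / 8 * δ := h2.resolve_right (by linarith)
      have h3 := hiso i (μ i x) ((hμ i).mem x) (μ i y) ((hμ i).mem y)
      have h4 := hu x (μ i x)
      have h5 := hu y (μ i y)
      have h6 : |u (μ i x) - u (μ i y)| ≤ |u x - u y| + |u x - u (μ i x)| +
          |u y - u (μ i y)| := by
        have e : u (μ i x) - u (μ i y) = (u x - u y) + -(u x - u (μ i x)) +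
          (u y - u (μ i y)) := by ring
        rw [e]
        refine (abs_add_three _ _ _).trans ?_
        rw [abs_neg]
      have h7 := hd.tri x (μ i x) y
      have h8 := hd.tri (μ i x) (μ i y) y
      rw [hd.symm (μ i y) y] at h8
      linarith
    have hin : ∀ a, pathDist G ℓ a (ν a) < 5 / 4 * δ → ∃ i, D i a ≤ 5 / 8 * δ := by
      intro a ha
      obtain ⟨i, hi⟩ := Set.mem_iUnion.1 (hν.mem a)
      refine ⟨i, (min_le_left _ _).trans ?_⟩
      have := (hμ i).le a _ hi
      linarith
    have half : ∀ x y, δ ≤ H x → δ ≤ H y → 8 * δ ≤ pathDist G ℓ x y →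
        (∀ i, ¬ (D i x ≤ 5 / 8 * δ ∧ D i y ≤ 5 / 8 * δ)) → (∃ i, D i x ≤ 5 / 8 * δ) →
        (Finset.univ.filter fun i => D i x ≤ 5 / 8 * δ).card ≤
          (Finset.univ.filter fun i => D i y ≤ 5 / 8 * δ).card →
        δ ^ 2 ≤ 4000000 * (R * ∑ j : Fin (J + 1), N j (some x) (some y)) := by
      intro x y hx hy hxy hno hex hcard
      set A := Finset.univ.filter fun i => D i x ≤ 5 / 8 * δ with hA
      set B := Finset.univ.filter fun i => D i y ≤ 5 / 8 * δ with hB
      have hApos : A.card ≠ 0 := by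
        obtain ⟨i, hi⟩ := hex
        exact Finset.card_ne_zero_of_mem (Finset.mem_filter.2 ⟨Finset.mem_univ i, hi⟩)
      have hdisj : Disjoint A B := by
        rw [Finset.disjoint_left]
        intro i h1 h2
        exact hno i ⟨(Finset.mem_filter.1 h1).2, (Finset.mem_filter.1 h2).2⟩
      have hlt : A.card < 2 ^ (Nat.log 2 A.card + 1) := Nat.lt_pow_succ_log_self (by norm_num) _
      have hle : 2 ^ (Nat.log 2 A.card + 1) ≤ (A ∪ B).card := by
        rw [Finset.card_union_of_disjoint hdisj]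
        have h1 : 2 ^ Nat.log 2 A.card ≤ A.card := Nat.pow_log_le_self 2 hApos
        rw [pow_succ]
        omega
      have hABn : (A ∪ B).card ≤ n := by
        have := Finset.card_le_univ (A ∪ B)
        rwa [Fintype.card_fin] at this
      have hJle : Nat.log 2 A.card + 1 ≤ J :=
        Nat.le_log_of_pow_le (by norm_num) (hle.trans hABn)
      let j : Fin (J + 1) := ⟨Nat.log 2 A.card + 1, by omega⟩
      have h1 : τ j x ≤ 2 * pathDist G ℓ x y := by
        refine hτle j x _ (A ∪ B) (fun i hi => ?_) hle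
        rcases Finset.mem_union.1 hi with h | h
        · have := (Finset.mem_filter.1 h).2
          linarith
        · have h2 := (Finset.mem_filter.1 h).2
          rw [hDd, min_le_iff] at h2
          have h2' : pathDist G ℓ y (μ i y) / 2 ≤ 5 / 8 * δ := h2.resolve_right (by linarith)
          have h3 := (hμ i).le x _ ((hμ i).mem y)
          have h4 := hd.tri x y (μ i y)
          refine (min_le_left _ _).trans ?_
          linarith
      have h2 : 5 / 8 * δ < τ j x := by
        refine hτlt j x (5 / 8 * δ) fun A' hA' => ?_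
        have h3 : A' ⊆ A := fun i hi =>
          Finset.mem_filter.2 ⟨Finset.mem_univ i, hA' i hi⟩
        exact (Finset.card_le_card h3).trans_lt hlt
      have h3 := hN4 j x y (by linarith) h1
      have h4 : N j (some x) (some y) ≤ ∑ j : Fin (J + 1), N j (some x) (some y) :=
        Finset.single_le_sum (f := fun j => N j (some x) (some y))
          (fun j _ => (hN1 j).nonneg _ _) (Finset.mem_univ j)
      have h5 : (5 / 8 * δ) ^ 2 ≤ τ j x ^ 2 := pow_le_pow_left₀ (by positivity) h2.le 2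
      have e : (5 / 8 * δ) ^ 2 = 25 / 64 * δ ^ 2 := by ring
      rw [e] at h5
      have e2 : (1000 * ((r : ℝ) + 2) ^ 3) ^ 2 = 1000000 * R := by rw [hR]; ring
      rw [e2] at h3
      have h6 := mul_le_mul_of_nonneg_left h4 hR0
      have h7 := mul_nonneg hR0 ((hN1 j).nonneg (some x) (some y))
      linarith
    rcases le_total (Finset.univ.filter fun i => D i x ≤ 5 / 8 * δ).card
        (Finset.univ.filter fun i => D i y ≤ 5 / 8 * δ).card with h | h
    · have h1 := half x y hx hy hxy hno (hin x (by linarith)) h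
      linarith
    · have h1 := half y x hy hx (by rw [hd.symm]; exact hxy) (fun i hi => hno i ⟨hi.2, hi.1⟩)
        (hin y hsy) h
      have h2 : ∑ j : Fin (J + 1), N j (some y) (some x) =
          ∑ j : Fin (J + 1), N j (some x) (some y) :=
        Finset.sum_congr rfl fun j _ => (hN1 j).symm _ _
      rw [h2] at h1
      linarith

end Vale.Agent.P235.Kl
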