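/-
P235-M (helper686): rounds with two budgets.  Definitions only.
-/
import Vale.Agent.P235.R2.RED.ClassesF

namespace Vale.Agent.P235.Ph

open Vale.Agent.P235

/-- `Rounds Q κ β G ℓ`: rounds which delete a `LaneSet` with at most `s` lanes (`κ` is at least the
sum of the numbers `log (s + 2) ^ 2`, or `(r + 2) ^ 6 * log (s + 2)` if the graph has no `K_r`
minor), rounds which delete all vertices of one face of a rotation system of Euler genus at most
`g`, and rounds which delete, from a graph without a `K_r` minor, any nonempty set `X` such that the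
metric restricted to `X` has distortion at most `B ≥ 1` (`β` is at least the sum of the numbers
`g + 1` and `(r + 2) ^ 3 * B`), lead to graphs of distortion at most `Q`.  The numbers `s`, `r`,
`g`, `B` may depend on the round and on the piece.  After each round every component is replaced by
a connected induced subgraph of `G` which contains it. -/
inductive Rounds (Q : ℝ) : ℝ → ℝ → ∀ {V : Type}, SimpleGraph V → (Sym2 V → ℝ) → Prop
  | leaf {κ β : ℝ} {V : Type} {G : SimpleGraph V} {ℓ : Sym2 V → ℝ} :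
      EmbedsL1 (pathDist G ℓ) Q → Rounds Q κ β G ℓ
  | lanes {s : ℕ} {κ β : ℝ} {V : Type} {G : SimpleGraph V} {ℓ : Sym2 V → ℝ} {X : Set V}
      {S : V → Set V} : X.Nonempty → Pf.LaneSet G ℓ s X → 0 ≤ κ → Pf.Parts G X S →
      (∀ u, u ∉ X → Rounds Q κ β (G.induce (S u)) (fun e => ℓ (e.map Subtype.val))) →
      Rounds Q (κ + Real.log ((s : ℝ) + 2) ^ 2) β G ℓ
  | lanesK {r s : ℕ} {κ β : ℝ} {V : Type} {G : SimpleGraph V} {ℓ : Sym2 V → ℝ} {X : Set V}
      {S : V → Set V} : ¬ H134.IsMinor (⊤ : SimpleGraph (Fin r)) G → X.Nonempty →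
      Pf.LaneSet G ℓ s X → 0 ≤ κ → Pf.Parts G X S →
      (∀ u, u ∉ X → Rounds Q κ β (G.induce (S u)) (fun e => ℓ (e.map Subtype.val))) →
      Rounds Q (κ + ((r : ℝ) + 2) ^ 6 * Real.log ((s : ℝ) + 2)) β G ℓ
  | face {g : ℕ} {κ β : ℝ} {V : Type} {G : SimpleGraph V} {ℓ : Sym2 V → ℝ}
      {σ : Equiv.Perm G.Dart} {d : G.Dart} {S : V → Set V} : SurfMap g G σ → 0 ≤ β →
      Pf.Parts G (onFace σ d) S →
      (∀ u, u ∉ onFace σ d → Rounds Q κ β (G.induce (S u)) (fun e => ℓ (e.map Subtype.val))) →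
      Rounds Q κ (β + ((g : ℝ) + 1)) G ℓ
  | set {r : ℕ} {κ β B : ℝ} {V : Type} {G : SimpleGraph V} {ℓ : Sym2 V → ℝ} {X : Set V}
      {S : V → Set V} : ¬ H134.IsMinor (⊤ : SimpleGraph (Fin r)) G → X.Nonempty → 1 ≤ B → 0 ≤ β →
      EmbedsL1 (fun u v : X => pathDist G ℓ u v) B → Pf.Parts G X S →
      (∀ u, u ∉ X → Rounds Q κ β (G.induce (S u)) (fun e => ℓ (e.map Subtype.val))) →
      Rounds Q κ (β + ((r : ℝ) + 2) ^ 3 * B) G ℓ

end Vale.Agent.P235.Ph
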