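/-
P235-M (helper686): rounds with two budgets.
-/
import Vale.Agent.P235.R2.H686.KlStep
import Vale.Agent.P235.R2.H686.KlDefs
import Vale.Agent.P235.R2.H802.RoundsF

set_option linter.all false
set_option autoImplicit false

namespace Vale.Agent.P235.Ph

open Finset Vale.Agent.P235 Vale.Agent.P235.Red H206 H536 H341W SqR

theorem laneSet_lanes' {V : Type} {G : SimpleGraph V} {ℓ : Sym2 V → ℝ} {s : ℕ} {X : Set V}
    (hX : X.Nonempty) (h : Pf.LaneSet G ℓ s X) : ∃ (u : V → ℝ) (L : Fin s → Set V), 0 < s ∧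
      (∀ i, (L i).Nonempty) ∧ (∀ a b, |u a - u b| ≤ pathDist G ℓ a b) ∧
      (∀ i, ∀ a ∈ L i, ∀ b ∈ L i, pathDist G ℓ a b ≤ |u a - u b|) ∧ X = ⋃ i, L i :=
  laneSet_lanes hX h

theorem log_pos' (s : ℕ) : 0 < Real.log ((s : ℝ) + 2) := Real.log_pos (by
  have : (0 : ℝ) ≤ s := Nat.cast_nonneg _
  linarith)

theorem log2_le (s : ℕ) : ((Nat.log 2 s + 1 : ℕ) : ℝ) ≤ 4 * Real.log ((s : ℝ) + 2) := by
  have hs0 : (0 : ℝ) ≤ s := Nat.cast_nonneg _
  have h2 : (1 : ℝ) / 2 ≤ Real.log 2 := by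
    have := Real.log_two_gt_d9
    linarith
  have h3 : Real.log 2 ≤ Real.log ((s : ℝ) + 2) := Real.log_le_log (by norm_num) (by linarith)
  rcases Nat.eq_zero_or_pos s with rfl | hs
  · simp only [Nat.log_zero_right, zero_add, Nat.cast_one]
    linarith
  · have h4 : (2 : ℝ) ^ (Nat.log 2 s) ≤ s := by
      exact_mod_cast Nat.pow_log_le_self 2 hs.ne'
    have h5 : (Nat.log 2 s : ℝ) * Real.log 2 ≤ Real.log ((s : ℝ) + 2) := by
      rw [← Real.log_pow]
      exact Real.log_le_log (by positivity) (h4.trans (by linarith))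
    have h6 : (0 : ℝ) ≤ (Nat.log 2 s : ℝ) := Nat.cast_nonneg _
    push_cast
    nlinarith

/-- the rounds, pointed form -/
theorem rounds_pointed {A C : ℝ} (hA : 1 ≤ A) (hC : 384 ≤ C)
    (hT : ∀ r : ℕ, Pf.StepK r (A * ((r : ℝ) + 2) ^ 3)) (hL : Kl.RowLanesP C) {Q : ℝ}
    (hQ : 0 < Q) {κ β : ℝ} {V : Type} {G : SimpleGraph V} {ℓ : Sym2 V → ℝ}
    (h : Rounds Q κ β G ℓ) : 0 ≤ κ → 0 ≤ β → Finite V → G.Connected →
      (∀ e ∈ G.edgeSet, 0 < ℓ e) → ∀ H : V → ℝ, (∀ v, 0 < H v) →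
      (∀ u v, G.Adj u v → |H u - H v| ≤ ℓ s(u, v)) →
      PointedQ G ℓ H (pathDist G ℓ) (C * κ) (96 * Q + 112 + β * (A + 4)) := by
  have hC0 : 0 ≤ C := by linarith
  induction h with
  | @leaf κ β V G ℓ hD =>
    intro hκ hβ _ hc hℓ H hH hHl
    refine pointedQ_monoK hℓ hH ?_ ((pointedQ_of (pointed_iff.2
      (pointed_leafW hQ hc hℓ hH hHl hD))).mono (by positivity))
    have : (0 : ℝ) ≤ β * (A + 4) := by positivity
    linarith
  | @lanes s κ β V G ℓ X S hX hR hκ hp _ ih =>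
    intro _ hβ hfin hc hℓ H hH hHl
    obtain ⟨u, L, hs, hne, hu, hiso, rfl⟩ := laneSet_lanes' hX hR
    have h1 := pointedQ_step hc hℓ hH hHl hs le_rfl hne hu hiso
      (k := C * κ) (K := 96 * Q + 112 + β * (A + 4)) (by positivity)
      (by positivity) fun v hv => piece_stepQ hc hℓ hv
        (H341W.Piece.induce hc hℓ (hp v hv).1 (hp v hv).2) (by positivity)
        (by positivity)
        fun H' hH' hHl' => ih v hv hκ hβ inferInstance (hp v hv).2 (induce_pos hℓ _) H' hH' hHl'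
    refine h1.mono ?_
    have h2 := log2_le s
    have h3 := log_pos' s
    have h4 : ((Nat.log 2 s + 1 : ℕ) : ℝ) ^ 2 ≤ (4 * Real.log ((s : ℝ) + 2)) ^ 2 :=
      pow_le_pow_left₀ (Nat.cast_nonneg _) h2 2
    have h5 : 384 * Real.log ((s : ℝ) + 2) ^ 2 ≤ C * Real.log ((s : ℝ) + 2) ^ 2 :=
      mul_le_mul_of_nonneg_right hC (sq_nonneg _)
    nlinarith
  | @lanesK r s κ β V G ℓ X S hK hX hR hκ hp _ ih =>
    intro _ hβ hfin hc hℓ H hH hHl
    obtain ⟨u, L, hs, hne, hu, hiso, rfl⟩ := laneSet_lanes' hX hR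
    obtain ⟨ν, hν⟩ := exists_near (X := ⋃ i, L i) hc hℓ hX
    obtain ⟨N, hN, hNe, hNu, hNl, hNs⟩ := hL r V G ℓ hc hK hℓ H hH hHl s L u hs hne hu hiso ν hν
    have h1 := pointedQ_stepA hc hℓ hH hHl hν hN hNe hNu hNl hNs
      (k := C * κ) (K := 96 * Q + 112 + β * (A + 4)) (by positivity)
      (by positivity) fun v hv => piece_stepQ hc hℓ hv
        (H341W.Piece.induce hc hℓ (hp v hv).1 (hp v hv).2) (by positivity)
        (by positivity)
        fun H' hH' hHl' => ih v hv hκ hβ inferInstance (hp v hv).2 (induce_pos hℓ _) H' hH' hHl'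
    refine h1.mono (le_of_eq ?_)
    ring
  | @face g κ β V G ℓ σ d S hP hβ hp _ ih =>
    intro hκ _ hfin hc hℓ H hH hHl
    have hd := pathDist_isMet hc hℓ
    obtain ⟨F, hF, hF1, hF2⟩ := surf_os hc hℓ hP d
    have hne : (onFace σ d).Nonempty := ⟨d.fst, d, Equiv.Perm.SameCycle.refl _ _, rfl⟩
    have hg1 : (1 : ℝ) ≤ ((g + 1 : ℕ) : ℝ) := by exact_mod_cast Nat.le_add_left 1 g
    have h1 := pointedQ_stepL (F := F) (L := ((g + 1 : ℕ) : ℝ)) hc hℓ hH hHl hne hF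
      (fun u v huv => (hF1 u v).trans (pathDist_adj hℓ huv)) hg1 (by
        intro ν hν x y δ hδ hx hy hxy
        have h1 := hF2 x y (ν x) (hν.mem x) (ν y) (hν.mem y)
        have h2 := hd.tri x (ν y) y
        rw [hd.symm (ν y) y] at h2
        have h3 := hd.tri x (ν x) y
        rw [hd.symm (ν x) y] at h3
        linarith)
      (k := C * κ) (K := 96 * Q + 112 + β * (A + 4)) (by positivity)
      (by positivity) fun v hv => piece_stepQ hc hℓ hv
        (H341W.Piece.induce hc hℓ (hp v hv).1 (hp v hv).2) (by positivity)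
        (by positivity)
        fun H' hH' hHl' => ih v hv hκ hβ inferInstance (hp v hv).2 (induce_pos hℓ _) H' hH' hHl'
    refine pointedQ_monoK hℓ hH ?_ h1
    push_cast
    have hg0 : (0 : ℝ) ≤ g := Nat.cast_nonneg _
    nlinarith
  | @set r κ β B V G ℓ X S hK hX hB hβ hE hp _ ih =>
    intro hκ _ hfin hc hℓ H hH hHl
    obtain ⟨F, hF, hF1, hF2⟩ := hT r V G ℓ hc hK hℓ X B hX hB hE
    have hr : (1 : ℝ) ≤ ((r : ℝ) + 2) ^ 3 := by
      have h0 : (0 : ℝ) ≤ r := Nat.cast_nonneg _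
      exact one_le_pow₀ (by linarith)
    have hrB : (1 : ℝ) ≤ ((r : ℝ) + 2) ^ 3 * B := by nlinarith
    have hAB : (1 : ℝ) ≤ A * ((r : ℝ) + 2) ^ 3 * B := by
      rw [mul_assoc]
      nlinarith
    have h1 := pointedQ_stepL (F := F) (L := A * ((r : ℝ) + 2) ^ 3 * B) hc hℓ hH hHl hX hF hF1
      hAB hF2
      (k := C * κ) (K := 96 * Q + 112 + β * (A + 4)) (by positivity)
      (by positivity) fun v hv => piece_stepQ hc hℓ hv
        (H341W.Piece.induce hc hℓ (hp v hv).1 (hp v hv).2) (by positivity)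
        (by positivity)
        fun H' hH' hHl' => ih v hv hκ hβ inferInstance (hp v hv).2 (induce_pos hℓ _) H' hH' hHl'
    refine pointedQ_monoK hℓ hH ?_ h1
    nlinarith

/-- **Rounds with two budgets** -/
theorem rounds_final {A C : ℝ} (hA : 1 ≤ A) (hC : 384 ≤ C)
    (hT : ∀ r : ℕ, Pf.StepK r (A * ((r : ℝ) + 2) ^ 3)) (hL : Kl.RowLanesP C) {Q : ℝ}
    (hQ : 1 ≤ Q) {κ β : ℝ} (hκ : 0 ≤ κ) (hβ : 0 ≤ β) {V : Type} [Finite V] {G : SimpleGraph V}
    {ℓ : Sym2 V → ℝ} (hc : G.Connected)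
    (hℓ : ∀ e ∈ G.edgeSet, 0 < ℓ e) (h : Rounds Q κ β G ℓ) :
    EmbedsL1 (pathDist G ℓ) (4000000 * A * C * (Q + √κ + β)) := by
  have hC0 : 0 ≤ C := by linarith
  have h1 := pointedQ_embeds hc hℓ (κ := C * κ) (K := 96 * Q + 112 + β * (A + 4))
    (by positivity) (by positivity)
    (rounds_pointed hA hC hT hL (by linarith) h hκ hβ inferInstance hc hℓ)
  have h2 : √(C * κ) ≤ C * √κ := by
    refine (Real.sqrt_le_left (by positivity)).2 ?_
    rw [mul_pow, Real.sq_sqrt hκ]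
    have : C * κ ≤ C * κ * C := le_mul_of_one_le_right (by positivity) (by linarith)
    nlinarith
  obtain ⟨Ω, μ', μ, f, hf⟩ := h1
  refine ⟨Ω, μ', μ, f, fun x y => ⟨(hf x y).1, (hf x y).2.trans
    (mul_le_mul_of_nonneg_right ?_ (pathDist_isMet hc hℓ |>.nonneg x y))⟩⟩
  have hk0 : 0 ≤ √κ := Real.sqrt_nonneg _
  have hC1 : 1 ≤ C := by linarith
  have hAC : 1 ≤ A * C := by nlinarith
  have e0 : C * √κ ≤ A * C * √κ := by
    refine mul_le_mul_of_nonneg_right ?_ hk0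
    nlinarith
  have e1 : Q ≤ A * C * Q := le_mul_of_one_le_left (by linarith) hAC
  have e2 : β * (A + 4) ≤ 5 * (A * C * β) := by
    have h5 : A ≤ A * C := le_mul_of_one_le_right (by linarith) hC1
    nlinarith
  have e3 : 4000000 * A * C * (Q + √κ + β) =
      4000000 * (A * C * Q) + 4000000 * (A * C * √κ) + 4000000 * (A * C * β) := by ring
  rw [e3]
  have e4 : 0 ≤ A * C * β := by positivity
  have e5 : 0 ≤ A * C * √κ := by positivity
  linarith

end Vale.Agent.P235.Ph
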