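/-
P235-M (helper686): rounds with two budgets, unconditional.
-/
import Vale.Agent.P235.R2.H686.KlRounds
import Vale.Agent.P235.R2.H686.KlLanes
import Vale.Agent.P235.R2.H907.VarP
import Vale.Agent.P235.R2.H718.LanesK
import Vale.Agent.P235.R2.H341.KrPf

set_option linter.all false
set_option autoImplicit false

namespace Vale.Agent.P235.Ph

open Vale.Agent.P235

theorem lanesP_all : Kl.RowLanesP 384 :=
  Kl.rowLanesP (R2.H907.VarP.rowVarP Kr.padK_all)

/-- **Rounds with two budgets** -/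
theorem rounds_all {Q : ℝ} (hQ : 1 ≤ Q) {κ β : ℝ} (hκ : 0 ≤ κ) (hβ : 0 ≤ β) {V : Type} [Finite V]
    {G : SimpleGraph V} {ℓ : Sym2 V → ℝ} (hc : G.Connected) (hℓ : ∀ e ∈ G.edgeSet, 0 < ℓ e)
    (h : Rounds Q κ β G ℓ) :
    EmbedsL1 (pathDist G ℓ) (4000000 * 400 * 384 * (Q + √κ + β)) :=
  rounds_final (by norm_num) (by norm_num) Pf.stepK_all lanesP_all hQ hκ hβ hc hℓ h

end Vale.Agent.P235.Ph
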