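/-
P235-M (helper686): the step which deletes an arbitrary set of a plane graph, from a random
retraction (R8, after helper643's `near_of_lanes`).
-/
import Vale.Agent.P235.R2.H643.ZSpec
import Vale.Agent.P235.R2.H582.KprSpec

set_option linter.all false
set_option autoImplicit false

namespace Vale.Agent.P235.Kpr

open Finset Vale.Agent.P235

/-- a random retraction onto `X` gives the map for the pairs near `X` -/
theorem near_of_retr {V : Type} [Finite V] {G : SimpleGraph V} {ℓ : Sym2 V → ℝ}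
    (hc : G.Connected) (hℓ : ∀ e ∈ G.edgeSet, 0 < ℓ e) {X : Set V} {κ : Type} [Fintype κ]
    {w : κ → ℝ} {π : κ → V → V} (hw : ∀ i, 0 ≤ w i) (hw1 : ∑ i, w i = 1)
    (hπ1 : ∀ i v, π i v ∈ X) {E : ℝ} (hE : 0 < E)
    (hπ2 : ∀ u v, G.Adj u v → ∑ i, w i * pathDist G ℓ (π i u) (π i v) ≤ E * ℓ s(u, v))
    (hπ3 : ∀ i v, ∀ z ∈ X, pathDist G ℓ v (π i v) ≤ 3 * pathDist G ℓ v z)
    {B : ℝ} (hB : 0 < B) (hX : EmbedsL1 (fun u v : X => pathDist G ℓ u v) B) :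
    ∃ F : V → V → ℝ, IsL1 F ∧ (∀ u v, G.Adj u v → F u v ≤ ℓ s(u, v)) ∧
      ∀ ν : V → V, Near G ℓ X ν → ∀ x y δ, 0 < δ → pathDist G ℓ x (ν x) ≤ δ →
        pathDist G ℓ y (ν y) ≤ 5 / 4 * δ → 8 * δ ≤ pathDist G ℓ x y →
        2 * δ ≤ 2 * E * B * F x y := by
  classical
  have hd := pathDist_isMet hc hℓ
  obtain ⟨ρ, hρL, hρ1, hρ2, -⟩ := hX.toL1S
  have hρI : IsL1 ρ := hρL.isL1
  have hK : 0 < E * B := mul_pos hE hB
  refine ⟨fun x y => ∑ i, w i * (1 / (E * B) * ρ ⟨π i x, hπ1 i x⟩ ⟨π i y, hπ1 i y⟩), ?_, ?_, ?_⟩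
  · exact IsL1.sum Finset.univ
      (fun i x y => w i * (1 / (E * B) * ρ ⟨π i x, hπ1 i x⟩ ⟨π i y, hπ1 i y⟩))
      fun i _ => ((hρI.comap (fun x => (⟨π i x, hπ1 i x⟩ : X))).smul (by positivity)).smul (hw i)
  · intro u v huv
    have h1 : ∑ i, w i * (1 / (E * B) * ρ ⟨π i u, hπ1 i u⟩ ⟨π i v, hπ1 i v⟩) ≤
        ∑ i, (1 / E) * (w i * pathDist G ℓ (π i u) (π i v)) := by
      refine Finset.sum_le_sum fun i _ => ?_
      have h2 := hρ2 ⟨π i u, hπ1 i u⟩ ⟨π i v, hπ1 i v⟩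
      have h3 : 1 / (E * B) * ρ ⟨π i u, hπ1 i u⟩ ⟨π i v, hπ1 i v⟩ ≤
          1 / E * pathDist G ℓ (π i u) (π i v) := by
        rw [div_mul_eq_mul_div, one_mul, div_le_iff₀ hK]
        have h4 : 1 / E * pathDist G ℓ (π i u) (π i v) * (E * B) =
            B * pathDist G ℓ (π i u) (π i v) := by
          field_simp
        rw [h4]
        exact h2
      have := mul_le_mul_of_nonneg_left h3 (hw i)
      linarith
    rw [← Finset.mul_sum] at h1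
    have h2 := hπ2 u v huv
    have h3 : 1 / E * ∑ i, w i * pathDist G ℓ (π i u) (π i v) ≤ ℓ s(u, v) := by
      rw [div_mul_eq_mul_div, one_mul, div_le_iff₀ hE]
      linarith
    exact h1.trans h3
  · intro ν hν x y δ hδ hx hy hxy
    have h1 : 1 / (E * B) * (5 / 4 * δ) ≤
        ∑ i, w i * (1 / (E * B) * ρ ⟨π i x, hπ1 i x⟩ ⟨π i y, hπ1 i y⟩) := by
      have h0 : 1 / (E * B) * (5 / 4 * δ) = ∑ i, w i * (1 / (E * B) * (5 / 4 * δ)) := by
        rw [← Finset.sum_mul, hw1, one_mul]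
      rw [h0]
      refine Finset.sum_le_sum fun i _ => mul_le_mul_of_nonneg_left
        (mul_le_mul_of_nonneg_left ?_ (by positivity)) (hw i)
      have h2 := hρ1 ⟨π i x, hπ1 i x⟩ ⟨π i y, hπ1 i y⟩
      have h3 := hd.tri x (π i x) y
      have h4 := hd.tri (π i x) (π i y) y
      rw [hd.symm (π i y) y] at h4
      have h2' : pathDist G ℓ (π i x) (π i y) ≤ ρ ⟨π i x, hπ1 i x⟩ ⟨π i y, hπ1 i y⟩ := h2
      have h5 := hπ3 i x (ν x) (hν.mem x)
      have h6 := hπ3 i y (ν y) (hν.mem y)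
      linarith
    have h2 := mul_le_mul_of_nonneg_left h1 (by positivity : (0 : ℝ) ≤ 2 * E * B)
    have h3 : 2 * E * B * (1 / (E * B) * (5 / 4 * δ)) = 5 / 2 * δ := by
      field_simp
      norm_num
    rw [h3] at h2
    refine le_trans ?_ h2
    linarith

/-- (R8) -/
theorem rowStep (h : RowRetr) : RowStep := by
  intro V _ G ℓ hc hσ hℓ X B hX hB hE
  obtain ⟨ν0, hν0⟩ := exists_near (X := X) hc hℓ hX
  obtain ⟨ι, hι, w, π, hw, hw1, hπ1, hπ2, hπ3⟩ := h V G ℓ hc hσ hℓ X ν0 hν0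
  obtain ⟨F, hF, hF1, hF2⟩ := near_of_retr hc hℓ hw hw1 hπ1 (by norm_num : (0 : ℝ) < 5000) hπ2
    (fun i v z hz => (hπ3 i v).trans (mul_le_mul_of_nonneg_left (hν0.le v z hz) (by norm_num)))
    (by linarith : 0 < B) hE
  refine ⟨F, hF, hF1, fun ν hν x y δ hδ hx hy hxy =>
    (hF2 ν hν x y δ hδ hx hy hxy).trans (le_of_eq (by ring))⟩

end Vale.Agent.P235.Kpr

namespace Vale.Agent.P235.Zero

open Vale.Agent.P235

/-- (S) -/
theorem rowNear {E : ℝ} (hE : 0 < E) (h : RowZ E) : RowNear (2 * E) := by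
  intro V _ G ℓ X q hc hσ hℓ hX hq hEm
  have hd := pathDist_isMet hc hℓ
  obtain ⟨ι, hι, w, r, hw, hw1, hr1, -, hr3, hr4⟩ := h V G ℓ X hc hσ hℓ hX
  obtain ⟨F, hF, hF1, hF2⟩ := Kpr.near_of_retr hc hℓ hw hw1 hr1 hE hr4
    (fun i v z hz => (hr3 i v z hz).trans
      (mul_le_mul_of_nonneg_right (by norm_num) (hd.nonneg v z))) hq hEm
  exact ⟨F, hF, hF1, hF2⟩

end Vale.Agent.P235.Zero
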