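/-
P235 (helper686): rounds of deletions.  Definitions only.
-/
import Vale.Agent.P235.H206.SurfRoundDefs
import Vale.Agent.P235.R2.RED.Classes

namespace Vale.Agent.P235.Rnd

/-- `K` is the vertex set of a component of `G - X` -/
def IsComp {V : Type} (G : SimpleGraph V) (X K : Set V) : Prop :=
  (G.induce K).Connected ∧ Disjoint K X ∧ ∀ a ∈ K, ∀ b, G.Adj a b → b ∈ K ∨ b ∈ X

/-- Rounds which lead from the weighted graph `(G, ℓ)` to weighted graphs of the class `Q`: at most
`k` rounds delete a nonempty union of at most `s` lanes (sets on which one nonexpansive function is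
an isometry, for example geodesics from one vertex), at most `j` rounds delete all vertices of one
face of a rotation system of Euler genus at most `g`, at most `t` rounds delete from a plane graph
with at most `n` vertices a nonempty set as in `Terminals` with slopes one (for example all vertices
on shortest `a`-`b` paths). After a round every component `K` of the rest is replaced by the
subgraph induced on a connected set `S K` which contains it, with the same lengths. -/
inductive Rounds (Q : ∀ (V : Type), SimpleGraph V → (Sym2 V → ℝ) → Prop) (n s g : ℕ) :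
    ℕ → ℕ → ℕ → ∀ {V : Type}, SimpleGraph V → (Sym2 V → ℝ) → Prop
  | leaf {k j t : ℕ} {V : Type} {G : SimpleGraph V} {ℓ : Sym2 V → ℝ} : Q V G ℓ →
      Rounds Q n s g k j t G ℓ
  | lanes {k j t : ℕ} {V : Type} {G : SimpleGraph V} {ℓ : Sym2 V → ℝ} {X : Set V}
      {S : Set V → Set V} : X.Nonempty → Lanes G ℓ s X →
      (∀ K, IsComp G X K → K ⊆ S K ∧ (G.induce (S K)).Connected) →
      (∀ K, IsComp G X K →
        Rounds Q n s g k j t (G.induce (S K)) (fun e => ℓ (e.map Subtype.val))) →
      Rounds Q n s g (k + 1) j t G ℓ
  | face {k j t : ℕ} {V : Type} {G : SimpleGraph V} {ℓ : Sym2 V → ℝ} {σ : Equiv.Perm G.Dart}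
      {d : G.Dart} {S : Set V → Set V} : SurfMap g G σ →
      (∀ K, IsComp G (onFace σ d) K → K ⊆ S K ∧ (G.induce (S K)).Connected) →
      (∀ K, IsComp G (onFace σ d) K →
        Rounds Q n s g k j t (G.induce (S K)) (fun e => ℓ (e.map Subtype.val))) →
      Rounds Q n s g k (j + 1) t G ℓ
  | tight {k j t : ℕ} {V : Type} {G : SimpleGraph V} {ℓ : Sym2 V → ℝ} {X : Set V}
      {S : Set V → Set V} : Nat.card V ≤ n → X.Nonempty → Swept.Terminals G ℓ 1 X →
      (∀ K, IsComp G X K → K ⊆ S K ∧ (G.induce (S K)).Connected) →
      (∀ K, IsComp G X K →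
        Rounds Q n s g k j t (G.induce (S K)) (fun e => ℓ (e.map Subtype.val))) →
      Rounds Q n s g k j (t + 1) G ℓ

end Vale.Agent.P235.Rnd
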