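/-
P235-M (helper686): rounds of tight sets, plain form.
-/
import Vale.Agent.P235.R2.H686.TR
import Vale.Agent.P235.R2.RED.Classes

set_option linter.all false
set_option autoImplicit false

namespace Vale.Agent.P235.Swept

open Vale.Agent.P235 H206 H536 Vale.Agent.P235.Red H341W H686

/-- `K` is the vertex set of a component of `G - L` -/
def IsComp {V : Type} (G : SimpleGraph V) (L K : Set V) : Prop :=
  (G.induce K).Connected ∧ Disjoint K L ∧ ∀ a ∈ K, ∀ b, G.Adj a b → b ∈ K ∨ b ∈ L

/-- `Peel Q n k G ℓ`: at most `k` rounds lead to weighted graphs of the class `Q`. In a round a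
nonempty set `L` as in `Terminals` (slopes one) is deleted from a plane graph with at most `n`
vertices; every component `K` of the rest is replaced by the subgraph induced on a connected set
`S K` which contains it, with the same lengths. -/
inductive Peel (Q : ∀ (V : Type), SimpleGraph V → (Sym2 V → ℝ) → Prop) (n : ℕ) :
    ℕ → ∀ {V : Type}, SimpleGraph V → (Sym2 V → ℝ) → Prop
  | leaf {k : ℕ} {V : Type} {G : SimpleGraph V} {ℓ : Sym2 V → ℝ} : Q V G ℓ → Peel Q n k G ℓ
  | round {k : ℕ} {V : Type} {G : SimpleGraph V} {ℓ : Sym2 V → ℝ} {L : Set V}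
      {S : Set V → Set V} : Nat.card V ≤ n → L.Nonempty → Terminals G ℓ 1 L →
      (∀ K, IsComp G L K → K ⊆ S K ∧ (G.induce (S K)).Connected) →
      (∀ K, IsComp G L K → Peel Q n k (G.induce (S K)) (fun e => ℓ (e.map Subtype.val))) →
      Peel Q n (k + 1) G ℓ

theorem isComp_compSet {V : Type} {G : SimpleGraph V} {L : Set V} {u : V} (hu : u ∉ L) :
    IsComp G L (compSet G L u) := by
  refine ⟨comp_connected hu, ?_, ?_⟩
  · rw [Set.disjoint_left]
    intro a ha
    exact ReachOff.right ha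
  · intro a ha b hab
    by_cases hb : b ∈ L
    · exact Or.inr hb
    · exact Or.inl (ReachOff.trans ha (ReachOff.adj (ReachOff.right ha) hb hab))

theorem Terminals.tightSet {V : Type} {G : SimpleGraph V} {ℓ : Sym2 V → ℝ}
    (hℓ : ∀ e ∈ G.edgeSet, 0 < ℓ e) {L : Set V} (hne : L.Nonempty) (h : Terminals G ℓ 1 L) :
    ∃ (σ : Equiv.Perm G.Dart) (h : V → ℝ) (B₁ B₂ : Set V), PlaneMap G σ ∧ W3.Ends σ B₁ B₂ ∧
      R2.H899.TightSet G ℓ h L B₁ B₂ := by
  obtain ⟨σ, h, B₁, B₂, hP, hB, h1, hlow, hhigh⟩ := h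
  refine ⟨σ, h, B₁, B₂, hP, hB, hne, h1, ?_, ?_⟩
  · intro v hv hvB
    obtain ⟨u, hu, hadj, hle⟩ := hlow v hv hvB
    refine ⟨u, hu, hadj, ?_⟩
    have h2 := h1 v hv u hu
    have h3 := pathDist_adj hℓ hadj
    have h4 := le_abs_self (h v - h u)
    linarith
  · intro v hv hvB
    obtain ⟨u, hu, hadj, hle⟩ := hhigh v hv hvB
    refine ⟨u, hu, hadj, ?_⟩
    have h2 := h1 v hv u hu
    have h3 := pathDist_adj hℓ hadj
    have h4 := neg_abs_le (h v - h u)
    linarith

/-- on finite graphs with positive lengths the plain form is an instance of `TRounds` -/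
theorem Peel.trounds {Q : ∀ (V : Type), SimpleGraph V → (Sym2 V → ℝ) → Prop} {n k : ℕ} {V : Type}
    {G : SimpleGraph V} {ℓ : Sym2 V → ℝ} (h : Peel Q n k G ℓ) : Finite V → G.Connected →
      (∀ e ∈ G.edgeSet, 0 < ℓ e) → TRounds Q n 0 0 0 k G ℓ := by
  induction h with
  | leaf h => intro _ _ _; exact .leaf h
  | @round k V G ℓ L S hn hne hT hS _ ih =>
    intro hfin hc hℓ
    obtain ⟨σ, h, B₁, B₂, hP, hB, hL⟩ := hT.tightSet hℓ hne
    refine .tight (W := fun u => S (compSet G L u)) (G' := fun u => G.induce (S (compSet G L u)))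
      (ℓ' := fun u e => ℓ (e.map Subtype.val))
      (κ := fun u a => ⟨a.1, ?_⟩) hP hn hB hL ?_ ?_
    · have hu : u ∉ L := fun h => (ReachOff.left a.2) h
      exact (hS _ (isComp_compSet hu)).1 a.2
    · intro u hu
      have h1 := hS _ (isComp_compSet hu)
      exact Piece.induce hc hℓ h1.1 h1.2
    · intro u hu
      have h1 := hS _ (isComp_compSet hu)
      exact ih _ (isComp_compSet hu) inferInstance h1.2 (induce_pos hℓ _)

end Vale.Agent.P235.Swept
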