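/-
P235-M (helper686): rounds of lanes (under the square root), faces and tight sets (additive).
-/
import Vale.Agent.P235.R2.H686.TQ
import Vale.Agent.P235.R2.H686.TR

set_option linter.all false
set_option autoImplicit false

namespace Vale.Agent.P235.H686

open Finset Vale.Agent.P235 H206 H536 Vale.Agent.P235.Red H341W SqR

/-- `XRounds Q N s g k j t G ℓ`: at most `k` rounds which delete from every piece a nonempty union
of at most `s` lanes, at most `j` rounds which delete all vertices on the boundary of one face of a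
rotation system of Euler genus at most `g`, and at most `t` rounds which delete a tight set from
plane pieces with at most `N` vertices, lead to weighted graphs of the class `Q`. After the
deletion of `X` every component of `G - X` is replaced by any `Piece` of `(G, ℓ)` for this
component. -/
inductive XRounds (Q : ∀ (V : Type), SimpleGraph V → (Sym2 V → ℝ) → Prop) (N s g : ℕ) :
    ℕ → ℕ → ℕ → ∀ {V : Type}, SimpleGraph V → (Sym2 V → ℝ) → Prop
  | leaf {k j t : ℕ} {V : Type} {G : SimpleGraph V} {ℓ : Sym2 V → ℝ} : Q V G ℓ →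
      XRounds Q N s g k j t G ℓ
  | lanes {k j t : ℕ} {V : Type} {G : SimpleGraph V} {ℓ : Sym2 V → ℝ} {X : Set V} {W : V → Type}
      {G' : ∀ u, SimpleGraph (W u)} {ℓ' : ∀ u, Sym2 (W u) → ℝ} {κ : ∀ u, compSet G X u → W u} :
      X.Nonempty → Lanes G ℓ s X →
      (∀ u ∉ X, H341W.Piece G ℓ (compSet G X u) (G' u) (ℓ' u) (κ u)) →
      (∀ u ∉ X, XRounds Q N s g k j t (G' u) (ℓ' u)) → XRounds Q N s g (k + 1) j t G ℓ
  | face {k j t : ℕ} {V : Type} {G : SimpleGraph V} {ℓ : Sym2 V → ℝ} {σ : Equiv.Perm G.Dart}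
      {d : G.Dart} {W : V → Type} {G' : ∀ u, SimpleGraph (W u)} {ℓ' : ∀ u, Sym2 (W u) → ℝ}
      {κ : ∀ u, compSet G (onFace σ d) u → W u} : SurfMap g G σ →
      (∀ u ∉ onFace σ d, H341W.Piece G ℓ (compSet G (onFace σ d) u) (G' u) (ℓ' u) (κ u)) →
      (∀ u ∉ onFace σ d, XRounds Q N s g k j t (G' u) (ℓ' u)) →
      XRounds Q N s g k (j + 1) t G ℓ
  | tight {k j t : ℕ} {V : Type} {G : SimpleGraph V} {ℓ : Sym2 V → ℝ} {σ : Equiv.Perm G.Dart}
      {h : V → ℝ} {L B₁ B₂ : Set V} {W : V → Type} {G' : ∀ u, SimpleGraph (W u)}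
      {ℓ' : ∀ u, Sym2 (W u) → ℝ} {κ : ∀ u, compSet G L u → W u} :
      PlaneMap G σ → Nat.card V ≤ N → W3.Ends σ B₁ B₂ → R2.H899.TightSet G ℓ h L B₁ B₂ →
      (∀ u ∉ L, H341W.Piece G ℓ (compSet G L u) (G' u) (ℓ' u) (κ u)) →
      (∀ u ∉ L, XRounds Q N s g k j t (G' u) (ℓ' u)) → XRounds Q N s g k j (t + 1) G ℓ

/-- the rounds, pointed form -/
theorem xrounds_pointed {Q : ∀ (V : Type), SimpleGraph V → (Sym2 V → ℝ) → Prop} {C A : ℝ}
    (hC : 0 < C) (hA : 1 ≤ A) (hT : StepT A)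
    (hQ : ∀ (V : Type) [Finite V] (G : SimpleGraph V) (ℓ : Sym2 V → ℝ), G.Connected →
      (∀ e ∈ G.edgeSet, 0 < ℓ e) → Q V G ℓ → EmbedsL1 (pathDist G ℓ) C)
    {N s g k j t : ℕ} {V : Type} {G : SimpleGraph V}
    {ℓ : Sym2 V → ℝ} (h : XRounds Q N s g k j t G ℓ) : Finite V → G.Connected →
      (∀ e ∈ G.edgeSet, 0 < ℓ e) → ∀ H : V → ℝ, (∀ v, 0 < H v) →
      (∀ u v, G.Adj u v → |H u - H v| ≤ ℓ s(u, v)) →
      PointedQ G ℓ H (pathDist G ℓ) (k * (24 * ((Nat.log 2 s + 1 : ℕ) : ℝ) ^ 2))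
        (96 * C + 112 + j * ((g : ℝ) + 5) + t * (A * ((ll N : ℝ) + 1) + 4)) := by
  have hg0 : (0 : ℝ) ≤ g := Nat.cast_nonneg g
  have hN0 : (0 : ℝ) ≤ (ll N : ℝ) := Nat.cast_nonneg _
  set T : ℝ := A * ((ll N : ℝ) + 1) + 4 with hTdef
  have hT0 : 0 ≤ T := by positivity
  induction h with
  | @leaf k j t V G ℓ hD =>
    intro _ hc hℓ H hH hHl
    refine (pointedQ_of (pointed_iff.2 (pointed_mono hℓ hH ?_
      (pointed_leafW hC hc hℓ hH hHl (hQ V G ℓ hc hℓ hD))))).mono (by positivity)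
    have : (0 : ℝ) ≤ j * ((g : ℝ) + 5) := by positivity
    have : (0 : ℝ) ≤ t * T := by positivity
    linarith
  | @lanes k j t V G ℓ X W G' ℓ' κ hX hR hp _ ih =>
    intro hfin hc hℓ H hH hHl
    obtain ⟨u, n, L, hns, hu, hne, hiso, rfl⟩ := hR
    have hn : 0 < n := by
      obtain ⟨x, hx⟩ := hX
      obtain ⟨i, _⟩ := Set.mem_iUnion.1 hx
      exact i.pos
    have h1 := pointedQ_step hc hℓ hH hHl hn hns hne hu hiso
      (k := k * (24 * ((Nat.log 2 s + 1 : ℕ) : ℝ) ^ 2))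
      (K := 96 * C + 112 + j * ((g : ℝ) + 5) + t * T) (by positivity)
      (by positivity) fun v hv => piece_stepQ hc hℓ hv (hp v hv) (by positivity) (by positivity)
        fun H' hH' hHl' => ih v hv (hp v hv).fin (hp v hv).conn (hp v hv).pos H' hH' hHl'
    refine h1.mono (le_of_eq ?_)
    push_cast
    ring
  | @face k j t V G ℓ σ d W G' ℓ' κ hσ hp _ ih =>
    intro hfin hc hℓ H hH hHl
    have hd := pathDist_isMet hc hℓ
    have hg : (1 : ℝ) ≤ ((g + 1 : ℕ) : ℝ) := by exact_mod_cast Nat.le_add_left 1 g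
    obtain ⟨F, hF, hF1, hF2⟩ := surf_os hc hℓ hσ d
    have hne : (onFace σ d).Nonempty := ⟨d.fst, d, Equiv.Perm.SameCycle.refl _ _, rfl⟩
    have h1 := pointedQ_step_gen (F := F) hc hℓ hH hHl hne hF
      (fun u v huv => (hF1 u v).trans (pathDist_adj hℓ huv)) hg (by
        intro ν hν x y δ hδ hx hy hxy
        have h1 := hF2 x y (ν x) (hν.mem x) (ν y) (hν.mem y)
        have h2 := hd.tri x (ν y) y
        rw [hd.symm (ν y) y] at h2
        have h3 := hd.tri x (ν x) y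
        rw [hd.symm (ν x) y] at h3
        linarith)
      (k := k * (24 * ((Nat.log 2 s + 1 : ℕ) : ℝ) ^ 2))
      (K := 96 * C + 112 + j * ((g : ℝ) + 5) + t * T) (by positivity) (by positivity)
      fun v hv => piece_stepQ hc hℓ hv (hp v hv) (by positivity) (by positivity)
        fun H' hH' hHl' => ih v hv (hp v hv).fin (hp v hv).conn (hp v hv).pos H' hH' hHl'
    have e : 96 * C + 112 + (j : ℝ) * ((g : ℝ) + 5) + t * T + (((g + 1 : ℕ) : ℝ) + 4) =
        96 * C + 112 + ((j + 1 : ℕ) : ℝ) * ((g : ℝ) + 5) + t * T := by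
      push_cast; ring
    rw [e] at h1
    exact h1
  | @tight k j t V G ℓ σ h L B₁ B₂ W G' ℓ' κ hP hN hB hL hp _ ih =>
    intro hfin hc hℓ H hH hHl
    have hd := pathDist_isMet hc hℓ
    obtain ⟨F, hF, hFl, hFX⟩ := hT V G σ ℓ h L B₁ B₂ hc hP hℓ hB hL
    have hn1 : (ll (Nat.card V) : ℝ) ≤ (ll N : ℝ) := by exact_mod_cast W3.ll_mono hN
    have hn0 : (0 : ℝ) ≤ (ll (Nat.card V) : ℝ) := Nat.cast_nonneg _
    have hA1 : 1 ≤ A * ((ll N : ℝ) + 1) := by nlinarith
    have hAn : A * ((ll (Nat.card V) : ℝ) + 1) ≤ A * ((ll N : ℝ) + 1) :=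
      mul_le_mul_of_nonneg_left (by linarith) (by linarith)
    have h1 := pointedQ_step_gen (F := F) hc hℓ hH hHl hL.ne hF hFl hA1 (by
        intro ν hν x y δ hδ hx hy hxy
        refine (hFX ν hν x y δ hδ hx hy hxy).trans ?_
        exact mul_le_mul_of_nonneg_right hAn (hF.nonneg x y))
      (k := k * (24 * ((Nat.log 2 s + 1 : ℕ) : ℝ) ^ 2))
      (K := 96 * C + 112 + j * ((g : ℝ) + 5) + t * T) (by positivity) (by positivity)
      fun v hv => piece_stepQ hc hℓ hv (hp v hv) (by positivity) (by positivity)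
        fun H' hH' hHl' => ih v hv (hp v hv).fin (hp v hv).conn (hp v hv).pos H' hH' hHl'
    have e : 96 * C + 112 + (j : ℝ) * ((g : ℝ) + 5) + t * T + (A * ((ll N : ℝ) + 1) + 4) =
        96 * C + 112 + (j : ℝ) * ((g : ℝ) + 5) + ((t + 1 : ℕ) : ℝ) * T := by
      push_cast; rw [hTdef]; ring
    rw [e] at h1
    exact h1

/-- a pointed family in the frame with squares gives an embedding -/
theorem embeds_of_pointedQ {V : Type} [Finite V] {G : SimpleGraph V} {ℓ : Sym2 V → ℝ}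
    (hc : G.Connected) (hℓ : ∀ e ∈ G.edgeSet, 0 < ℓ e) {k m K : ℝ} (hk : 0 ≤ k) (hm : 0 ≤ m)
    (hK : 0 < K)
    (h : ∀ H : V → ℝ, (∀ v, 0 < H v) → (∀ u v, G.Adj u v → |H u - H v| ≤ ℓ s(u, v)) →
      PointedQ G ℓ H (pathDist G ℓ) (k * (24 * m ^ 2)) K) :
    EmbedsL1 (pathDist G ℓ) (160000 * √k * m + 16000 * K) := by
  have := Fintype.ofFinite V
  have hd := pathDist_isMet hc hℓ
  obtain ⟨R, hR0, hR⟩ : ∃ R : ℝ, 0 < R ∧ ∀ x y, pathDist G ℓ x y ≤ R := by
    refine ⟨∑ x, ∑ y, pathDist G ℓ x y + 1, ?_, ?_⟩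
    · have : 0 ≤ ∑ x, ∑ y, pathDist G ℓ x y :=
        Finset.sum_nonneg fun x _ => Finset.sum_nonneg fun y _ => hd.nonneg x y
      linarith
    intro x y
    have e1 : pathDist G ℓ x y ≤ ∑ y, pathDist G ℓ x y :=
      Finset.single_le_sum (f := fun y => pathDist G ℓ x y) (fun y _ => hd.nonneg x y)
        (Finset.mem_univ y)
    have e2 : ∑ y, pathDist G ℓ x y ≤ ∑ x, ∑ y, pathDist G ℓ x y :=
      Finset.single_le_sum (f := fun x => ∑ y, pathDist G ℓ x y)
        (fun x _ => Finset.sum_nonneg fun y _ => hd.nonneg x y) (Finset.mem_univ x)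
    linarith
  obtain ⟨N, σ, hN, h1, h2, -, -, h5⟩ := h (fun _ => R)
    (fun _ => hR0) (fun u v huv => by
      rw [sub_self, abs_zero]; exact (hℓ _ huv).le)
  obtain ⟨F, hF, hFN⟩ := hN.toL1
  have hK' : 0 < 160000 * √k * m + 16000 * K := by positivity
  have hI := ((hF.comap (some : V → Option V)).smul (by norm_num : (0 : ℝ) ≤ 32000)).add
    ((h1.comap (some : V → Option V)).smul (by norm_num : (0 : ℝ) ≤ 16000))
  refine hI.embeds (fun x y => ?_) (pathDist_semi hc hK' (fun x => hI.self x)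
    (fun x y z => hI.tri x y z) fun u v huv => ?_)
  · show pathDist G ℓ x y ≤ 32000 * F (some x) (some y) + 16000 * σ (some x) (some y)
    have nF := hF.nonneg (some x) (some y)
    have nσ := h1.nonneg (some x) (some y)
    rcases (hd.nonneg x y).eq_or_lt with h0 | h0
    · linarith
    rcases h5 x y (pathDist G ℓ x y / 8) (by linarith) (by linarith [hR x y])
      (by linarith [hR x y]) (by linarith) with h6 | h6
    · have h7 := (hFN (some x) (some y)).2
      have h8 : pathDist G ℓ x y / 8 ≤ 2000 * √(N (some x) (some y)) := by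
        have e : 2000 * √(N (some x) (some y)) = √(4000000 * N (some x) (some y)) := by
          rw [Real.sqrt_mul (by norm_num), show (4000000 : ℝ) = 2000 ^ 2 by norm_num,
            Real.sqrt_sq (by norm_num)]
        rw [e]
        exact Real.le_sqrt_of_sq_le h6
      linarith
    · linarith
  · have hl0 := hℓ s(u, v) huv
    have h6 := h2 u v huv
    have h7 := (hFN (some u) (some v)).1
    have h8 : √(N (some u) (some v)) ≤ 5 * √k * m * ℓ s(u, v) := by
      have h9 : N (some u) (some v) ≤ (5 * √k * m * ℓ s(u, v)) ^ 2 := by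
        have e : (5 * √k * m * ℓ s(u, v)) ^ 2 = 25 * (√k) ^ 2 * m ^ 2 * ℓ s(u, v) ^ 2 := by ring
        rw [e, Real.sq_sqrt hk]
        refine h6.1.trans ?_
        have : 0 ≤ k * m ^ 2 * ℓ s(u, v) ^ 2 := by positivity
        linarith
      exact Real.sqrt_le_iff.2 ⟨by positivity, h9⟩
    show 32000 * F (some u) (some v) + 16000 * σ (some u) (some v) ≤ _
    have h10 := h6.2
    nlinarith

/-- **Rounds of lanes, faces and tight sets.** `k` rounds of at most `s` lanes, `j` rounds of faces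
(genus `g`), `t` rounds of tight sets, leaves of distortion `C`. -/
theorem xrounds_distortion {A : ℝ} (hA : 1 ≤ A) (hT : StepT A)
    (Q : ∀ (V : Type), SimpleGraph V → (Sym2 V → ℝ) → Prop) {C : ℝ}
    (hC : 1 ≤ C)
    (hQ : ∀ (V : Type) [Finite V] (G : SimpleGraph V) (ℓ : Sym2 V → ℝ), G.Connected →
      (∀ e ∈ G.edgeSet, 0 < ℓ e) → Q V G ℓ → EmbedsL1 (pathDist G ℓ) C)
    (N s g k j t : ℕ) (V : Type) [Finite V] (G : SimpleGraph V) (ℓ : Sym2 V → ℝ)
    (hc : G.Connected) (hℓ : ∀ e ∈ G.edgeSet, 0 < ℓ e) (h : XRounds Q N s g k j t G ℓ) :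
    EmbedsL1 (pathDist G ℓ)
      (5000000 * (C + √k * Real.log (s + 2) + j * ((g : ℝ) + 1) +
        t * (A * ((ll N : ℝ) + 1)))) := by
  have hd := pathDist_isMet hc hℓ
  have hC0 : 0 < C := by linarith
  have hN0 : (0 : ℝ) ≤ (ll N : ℝ) := Nat.cast_nonneg _
  have hk0 : (0 : ℝ) ≤ k := Nat.cast_nonneg k
  have hj0 : (0 : ℝ) ≤ j := Nat.cast_nonneg j
  have ht0 : (0 : ℝ) ≤ t := Nat.cast_nonneg t
  have hg0 : (0 : ℝ) ≤ g := Nat.cast_nonneg g
  obtain ⟨Ω, m, μ, f, hf⟩ := embeds_of_pointedQ hc hℓ (k := (k : ℝ))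
    (m := ((Nat.log 2 s + 1 : ℕ) : ℝ))
    (K := 96 * C + 112 + j * ((g : ℝ) + 5) + t * (A * ((ll N : ℝ) + 1) + 4)) hk0
    (Nat.cast_nonneg _) (by positivity)
    (fun H hH hHl => xrounds_pointed hC0 hA hT hQ h inferInstance hc hℓ H hH hHl)
  refine ⟨Ω, m, μ, f, fun x y => ⟨(hf x y).1, (hf x y).2.trans
    (mul_le_mul_of_nonneg_right ?_ (hd.nonneg x y))⟩⟩
  have h1 := mul_le_mul_of_nonneg_left (log_add_two s) (Real.sqrt_nonneg (k : ℝ))
  have h2 : 0 ≤ √(k : ℝ) * Real.log (s + 2) :=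
    mul_nonneg (Real.sqrt_nonneg _) (Real.log_nonneg (by
      have : (0 : ℝ) ≤ s := Nat.cast_nonneg s
      linarith))
  have h3 : 0 ≤ (j : ℝ) * g := mul_nonneg hj0 hg0
  have hA1 : 1 ≤ A * ((ll N : ℝ) + 1) := by nlinarith
  have h4 : (t : ℝ) * 1 ≤ t * (A * ((ll N : ℝ) + 1)) := mul_le_mul_of_nonneg_left hA1 ht0
  have h5 : (t : ℝ) * (A * ((ll N : ℝ) + 1) + 4) = t * (A * ((ll N : ℝ) + 1)) + 4 * t := by ring
  have h6 : (j : ℝ) * ((g : ℝ) + 5) = j * ((g : ℝ) + 1) + 4 * j := by ring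
  have h7 : (j : ℝ) * ((g : ℝ) + 1) = j * g + j := by ring
  rw [h5, h6]
  rw [h7]
  linarith

end Vale.Agent.P235.H686
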