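/-
P235-M (helper686): rounds of deletions, plain form.
-/
import Vale.Agent.P235.R2.H686.PeelDefs
import Vale.Agent.P235.R2.H686.TR2
import Vale.Agent.P235.R2.H686.TX
import Vale.Agent.P235.R2.H643.StepT

set_option linter.all false
set_option autoImplicit false

namespace Vale.Agent.P235.Rnd

open Vale.Agent.P235 H206 H536 Vale.Agent.P235.Red H341W H686

theorem isComp_compSet {V : Type} {G : SimpleGraph V} {L : Set V} {u : V} (hu : u ∉ L) :
    IsComp G L (compSet G L u) := Swept.isComp_compSet hu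

/-- on finite connected graphs with positive lengths the plain form is an instance of `XRounds` -/
theorem Rounds.xrounds {Q : ∀ (V : Type), SimpleGraph V → (Sym2 V → ℝ) → Prop} {n s g k j t : ℕ}
    {V : Type} {G : SimpleGraph V} {ℓ : Sym2 V → ℝ} (h : Rounds Q n s g k j t G ℓ) :
    Finite V → G.Connected → (∀ e ∈ G.edgeSet, 0 < ℓ e) → XRounds Q n s g k j t G ℓ := by
  induction h with
  | leaf h => intro _ _ _; exact .leaf h
  | @lanes k j t V G ℓ X S hne hX hS _ ih =>
    intro hfin hc hℓ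
    refine .lanes (W := fun u => S (compSet G X u)) (G' := fun u => G.induce (S (compSet G X u)))
      (ℓ' := fun u e => ℓ (e.map Subtype.val))
      (κ := fun u a => ⟨a.1, ?_⟩) hne hX ?_ ?_
    · have hu : u ∉ X := fun h => (ReachOff.left a.2) h
      exact (hS _ (isComp_compSet hu)).1 a.2
    · intro u hu
      have h1 := hS _ (isComp_compSet hu)
      exact Piece.induce hc hℓ h1.1 h1.2
    · intro u hu
      have h1 := hS _ (isComp_compSet hu)
      exact ih _ (isComp_compSet hu) inferInstance h1.2 (induce_pos hℓ _)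
  | @face k j t V G ℓ σ d S hσ hS _ ih =>
    intro hfin hc hℓ
    refine .face (σ := σ) (d := d) (W := fun u => S (compSet G (onFace σ d) u))
      (G' := fun u => G.induce (S (compSet G (onFace σ d) u)))
      (ℓ' := fun u e => ℓ (e.map Subtype.val))
      (κ := fun u a => ⟨a.1, ?_⟩) hσ ?_ ?_
    · have hu : u ∉ onFace σ d := fun h => (ReachOff.left a.2) h
      exact (hS _ (isComp_compSet hu)).1 a.2
    · intro u hu
      have h1 := hS _ (isComp_compSet hu)
      exact Piece.induce hc hℓ h1.1 h1.2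
    · intro u hu
      have h1 := hS _ (isComp_compSet hu)
      exact ih _ (isComp_compSet hu) inferInstance h1.2 (induce_pos hℓ _)
  | @tight k j t V G ℓ X S hn hne hT hS _ ih =>
    intro hfin hc hℓ
    obtain ⟨σ, h, B₁, B₂, hP, hB, hL⟩ := hT.tightSet hℓ hne
    refine .tight (W := fun u => S (compSet G X u)) (G' := fun u => G.induce (S (compSet G X u)))
      (ℓ' := fun u e => ℓ (e.map Subtype.val))
      (κ := fun u a => ⟨a.1, ?_⟩) hP hn hB hL ?_ ?_
    · have hu : u ∉ X := fun h => (ReachOff.left a.2) h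
      exact (hS _ (isComp_compSet hu)).1 a.2
    · intro u hu
      have h1 := hS _ (isComp_compSet hu)
      exact Piece.induce hc hℓ h1.1 h1.2
    · intro u hu
      have h1 := hS _ (isComp_compSet hu)
      exact ih _ (isComp_compSet hu) inferInstance h1.2 (induce_pos hℓ _)

/-- **Rounds of deletions.** -/
theorem Rounds.embeds {C : ℝ} (hC : 1 ≤ C) (hM : MStarLL C) {q : ℝ} (hq : 1 ≤ q)
    {Q : ∀ (V : Type), SimpleGraph V → (Sym2 V → ℝ) → Prop}
    (hQ : ∀ (V : Type) [Finite V] (G : SimpleGraph V) (ℓ : Sym2 V → ℝ), G.Connected →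
      (∀ e ∈ G.edgeSet, 0 < ℓ e) → Q V G ℓ → EmbedsL1 (pathDist G ℓ) q)
    {n s g k j t : ℕ} {V : Type} [Finite V] {G : SimpleGraph V} {ℓ : Sym2 V → ℝ}
    (hc : G.Connected) (hℓ : ∀ e ∈ G.edgeSet, 0 < ℓ e) (h : Rounds Q n s g k j t G ℓ) :
    EmbedsL1 (pathDist G ℓ) (10 ^ 17 * C * (q + √k * Real.log (s + 2) + j * ((g : ℝ) + 1) +
      t * Swept.LL n)) := by
  have hA : 1 ≤ 84 * (219073 * 96 * C * 9) := by linarith
  obtain ⟨Ω, m, μ, f, hf⟩ := xrounds_distortion hA (H643.stepT hC hM) Q hq hQ n s g k j t V G ℓ hc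
    hℓ (h.xrounds inferInstance hc hℓ)
  refine ⟨Ω, m, μ, f, fun x y => ⟨(hf x y).1, (hf x y).2.trans
    (mul_le_mul_of_nonneg_right ?_ (pd_nonneg hℓ _ _))⟩⟩
  have e : Swept.LL n = (ll n : ℝ) + 1 := rfl
  have h1 : 0 ≤ √(k : ℝ) * Real.log (s + 2) :=
    mul_nonneg (Real.sqrt_nonneg _) (Real.log_nonneg (by
      have : (0 : ℝ) ≤ s := Nat.cast_nonneg s
      linarith))
  have h2 : (0 : ℝ) ≤ j * ((g : ℝ) + 1) := by positivity
  have h3 : (0 : ℝ) ≤ t * ((ll n : ℝ) + 1) := by positivity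
  rw [e]
  set a := q + √(k : ℝ) * Real.log (s + 2) + j * ((g : ℝ) + 1) with ha
  set b := (t : ℝ) * ((ll n : ℝ) + 1) with hb
  have ha0 : 0 ≤ a := by rw [ha]; linarith
  have h4 : (t : ℝ) * (84 * (219073 * 96 * C * 9) * ((ll n : ℝ) + 1)) =
      84 * (219073 * 96 * C * 9) * b := by rw [hb]; ring
  rw [h4]
  have h5 : a ≤ C * a := le_mul_of_one_le_left ha0 hC
  have h6 : 0 ≤ C * b := by positivity
  have h7 : 0 ≤ C * a := by positivity
  nlinarith

end Vale.Agent.P235.Rnd
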